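import Crest.Agent.R231.L.Seq
import Crest.Agent.R231.Setup

/-! R231, block L: the gauge transformation between `DD` (for `sig = (s, 0, 0, …)`) and `DT`. -/

set_option autoImplicit false
set_option linter.unusedVariables false
set_option linter.unusedSectionVars false
open Set
open scoped Classical

noncomputable section
namespace Crest.Agent.R231

variable {X : Type} [TopologicalSpace X]

/-- the sequence `(s, 0, 0, …)` -/
def sgm (s : Ch X →ₗ[F2] Ch X) (k : ℕ) : Ch X →ₗ[F2] Ch X := Nat.casesOn k s fun _ => 0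

theorem DD_zero (s : Ch X →ₗ[F2] Ch X) (z : ℕ → Ch X) : DD dd (sgm s) z 0 = dd (z 1) := by simp [DD]

theorem DD_succ (s : Ch X →ₗ[F2] Ch X) (z : ℕ → Ch X) (i : ℕ) :
    DD dd (sgm s) z (i + 1) = dd (z (i + 2)) + s (z i) := by
  rw [DD, Finset.sum_eq_single 0]
  · rfl
  · rintro (_ | k) - hk
    · exact absurd rfl hk
    · rfl
  · simp

structure Gau (ρ : X → X) (s g h : Ch X →ₗ[F2] Ch X) : Prop where
  dg : ∀ c, dd (g c) = g (dd c) + (c + mp ρ c)
  dh : ∀ c, dd (h c) = h (dd c) + g (s c)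
  rg : ∀ c, mp ρ (g c) = g c + s c
  rh : ∀ c, mp ρ (h c) = h c
  hs : ∀ c, h (s c) = 0
  pg : ∀ i c, g (pr i c) = pr (i + 1) (g c)
  ph : ∀ i c, h (pr i c) = pr (i + 3) (h c)

variable (g h : Ch X →ₗ[F2] Ch X)

/-- the strictly triangular part of the gauge -/
def gtr (z : ℕ → Ch X) : ℕ → Ch X
  | 0 => 0
  | 1 => g (z 0)
  | 2 => g (z 1)
  | i + 3 => g (z (i + 2)) + h (z i)

def gau (z : ℕ → Ch X) (i : ℕ) : Ch X := z i + gtr g h z i

def ginv (f : ℕ → Ch X) : ℕ → Ch X
  | 0 => f 0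
  | 1 => f 1 + g (ginv f 0)
  | 2 => f 2 + g (ginv f 1)
  | i + 3 => f (i + 3) + (g (ginv f (i + 2)) + h (ginv f i))

theorem ginv_eq (f : ℕ → Ch X) : ∀ i, ginv g h f i = f i + gtr g h (ginv g h f) i
  | 0 => by simp [ginv, gtr]
  | 1 => rfl
  | 2 => rfl
  | i + 3 => by rw [ginv, gtr]

theorem gau_ginv (f : ℕ → Ch X) : gau g h (ginv g h f) = f := by
  funext i
  rw [gau, ginv_eq, add_assoc, add_self, add_zero]

theorem gau_add (z z' : ℕ → Ch X) : gau g h (z + z') = gau g h z + gau g h z' := by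
  funext i
  rcases i with _ | _ | _ | i <;> simp only [gau, gtr, Pi.add_apply, map_add, zero_add] <;> abel

variable {g h} {ρ : X → X} {s : Ch X →ₗ[F2] Ch X} {A : Submodule F2 (Ch X)}

theorem Gau.tr_mem (H : Gau ρ s g h) (hg : ∀ c ∈ A, g c ∈ A) (hh : ∀ c ∈ A, h c ∈ A) {z : ℕ → Ch X} :
    ∀ i, (∀ j < i, pr j (z j) = z j ∧ z j ∈ A) → pr i (gtr g h z i) = gtr g h z i ∧ gtr g h z i ∈ A
  | 0, _ => ⟨map_zero _, zero_mem _⟩
  | 1, hz => ⟨by rw [gtr, ← H.pg, (hz 0 (by omega)).1], hg _ (hz 0 (by omega)).2⟩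
  | 2, hz => ⟨by rw [gtr, ← H.pg, (hz 1 (by omega)).1], hg _ (hz 1 (by omega)).2⟩
  | i + 3, hz => ⟨by rw [gtr, map_add, ← H.pg, ← H.ph, (hz i (by omega)).1, (hz (i + 2) (by omega)).1],
      add_mem (hg _ (hz _ (by omega)).2) (hh _ (hz _ (by omega)).2)⟩

theorem Gau.gau_mem (H : Gau ρ s g h) (hg : ∀ c ∈ A, g c ∈ A) (hh : ∀ c ∈ A, h c ∈ A) {z : ℕ → Ch X}
    (hz : PP A z) : PP A (gau g h z) :=
  hz.add fun i => H.tr_mem hg hh i fun j _ => hz j

theorem Gau.mem_of_gau (H : Gau ρ s g h) (hg : ∀ c ∈ A, g c ∈ A) (hh : ∀ c ∈ A, h c ∈ A) {z : ℕ → Ch X}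
    (hz : PP A (gau g h z)) : PP A z := fun i => by
  induction i using Nat.strong_induction_on with
  | _ i ih =>
    have e : z i = gau g h z i + gtr g h z i := by rw [gau, add_assoc, add_self, add_zero]
    have := H.tr_mem hg hh i ih
    rw [e]
    exact ⟨by rw [map_add, (hz i).1, this.1], add_mem (hz i).2 this.2⟩

theorem Gau.inj (H : Gau ρ s g h) {z z' : ℕ → Ch X} (e : gau g h z = gau g h z') : z = z' := by
  have := H.mem_of_gau (A := ⊥) (z := z + z') (by simp) (by simp) fun i => by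
    simp [gau_add, e, add_self]
  funext i
  have h1 : z i + z' i = 0 := (this i).2
  linear_combination (norm := abel) h1 - add_self (z' i)

theorem Gau.DT_gau (H : Gau ρ s g h) {z : ℕ → Ch X} (hz : dd (z 0) = 0) :
    DT ρ (gau g h z) = gau g h (DD dd (sgm s) z) := by
  funext i
  rcases i with _ | _ | _ | _ | i <;>
    simp only [DT, gau, gtr, DD_zero, DD_succ, map_add, H.dg, H.dh, H.rg, H.rh, H.hs, hz, zero_add, map_zero,
      add_zero, Nat.reduceAdd]
  · linear_combination (norm := abel) add_self (z 0) + add_self (mp ρ (z 0))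
  · linear_combination (norm := abel) add_self (z 1) + add_self (mp ρ (z 1)) + add_self (g (z 0))
  · linear_combination (norm := abel) add_self (z 2) + add_self (mp ρ (z 2)) + add_self (g (z 1))
  · linear_combination (norm := abel) add_self (z 3) + add_self (mp ρ (z 3)) + add_self (g (z 2))
      + add_self (h (z 0))
  · linear_combination (norm := abel) add_self (z (i + 4)) + add_self (mp ρ (z (i + 4)))
      + add_self (g (z (i + 3))) + add_self (h (z (i + 1)))

end Crest.Agent.R231
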