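import Crest.Agent.R231.T.Sd

/-! R231, block L: the Tate complex `D' = dd + (1 + r)` of an involution, relative acyclicity. -/

set_option autoImplicit false
set_option linter.unusedVariables false
set_option linter.unusedSectionVars false
open Set Topology
open scoped Classical

noncomputable section
namespace Crest.Agent.R231

variable {X : Type} [TopologicalSpace X]

/-- homogeneous sequences in `A` -/
def PP (A : Submodule F2 (Ch X)) (z : ℕ → Ch X) : Prop := ∀ i, pr i (z i) = z i ∧ z i ∈ A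

/-- the Tate differential of `ρ` -/
def DT (ρ : X → X) (z : ℕ → Ch X) (i : ℕ) : Ch X := dd (z (i + 1)) + (z i + mp ρ (z i))

/-- relative acyclicity for `DT` -/
def RA (ρ : X → X) (A' A : Submodule F2 (Ch X)) : Prop :=
  ∀ w, PP A' w → PP A (DT ρ w) → ∃ ξ, PP A' ξ ∧ PP A (w + DT ρ ξ)

/-- continuous involutions -/
structure Inv (ρ : X → X) : Prop where
  cont : Continuous ρ
  inv : ∀ x, ρ (ρ x) = x

variable {ρ : X → X} {A A' A'' : Submodule F2 (Ch X)}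

theorem PP.mono {z : ℕ → Ch X} (h : PP A z) (hA : A ≤ A') : PP A' z := fun i => ⟨(h i).1, hA (h i).2⟩

theorem PP.add {z z' : ℕ → Ch X} (h : PP A z) (h' : PP A z') : PP A (z + z') := fun i =>
  ⟨by rw [Pi.add_apply, map_add, (h i).1, (h' i).1], add_mem (h i).2 (h' i).2⟩

theorem PP.dd_zero {z : ℕ → Ch X} (h : PP A z) : dd (z 0) = 0 := by rw [← (h 0).1, dd_pr_zero]

theorem DT_add (z z' : ℕ → Ch X) : DT ρ (z + z') = DT ρ z + DT ρ z' := by
  funext i
  simp only [DT, Pi.add_apply, map_add]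
  abel

theorem PP.hom_DT {z : ℕ → Ch X} (h : PP A z) (i : ℕ) : pr i (DT ρ z i) = DT ρ z i := by
  rw [DT, map_add, map_add, ← dd_pr, ← mp_pr, (h i).1, (h (i + 1)).1]

theorem Inv.rr (h : Inv ρ) (c : Ch X) : mp ρ (mp ρ c) = c := by
  rw [mp_comp (mem_sup_univ c) h.cont.continuousOn]
  simp only [h.inv, mp_id]

theorem Inv.dd (h : Inv ρ) (c : Ch X) : mp ρ (dd c) = dd (mp ρ c) :=
  mp_dd (mem_sup_univ c) h.cont.continuousOn

theorem two_F2 {V : Type} [AddCommGroup V] [Module F2 V] (c : V) : (2 : ℤ) • c = 0 := by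
  rw [two_zsmul, add_self]

theorem Inv.DT_DT (h : Inv ρ) (z : ℕ → Ch X) : DT ρ (DT ρ z) = 0 := by
  funext i
  simp only [DT, map_add, dd_dd, h.dd, h.rr, Pi.zero_apply]
  linear_combination (norm := abel) add_self (R231.dd (z (i + 1))) + add_self (R231.dd (mp ρ (z (i + 1))))
    + add_self (z i) + add_self (mp ρ (z i))

theorem RA.refl (ρ : X → X) (A : Submodule F2 (Ch X)) : RA ρ A A := fun w hw _ =>
  ⟨0, fun i => ⟨map_zero _, zero_mem _⟩, by
    have : DT ρ (0 : ℕ → Ch X) = 0 := by funext i; simp [DT]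
    rwa [this, add_zero]⟩

theorem RA.trans (h : Inv ρ) (h1 : RA ρ A'' A') (h2 : RA ρ A' A) (hA : A ≤ A') (hA' : A' ≤ A'') :
    RA ρ A'' A := by
  intro w hw hD
  obtain ⟨ξ, a1, a2⟩ := h1 w hw (hD.mono hA)
  obtain ⟨ξ', b1, b2⟩ := h2 _ a2 (by rwa [DT_add, h.DT_DT, add_zero])
  exact ⟨ξ + ξ', a1.add (b1.mono hA'), by rwa [DT_add, ← add_assoc]⟩

/-- invariance lemma -/
theorem RA.of_acyclic (h : Inv ρ) (hA : ∀ c ∈ A, mp ρ c ∈ A) (hA' : ∀ c ∈ A', mp ρ c ∈ A')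
    (gA : ∀ i, ∀ c ∈ A, pr i c ∈ A) (gA' : ∀ i, ∀ c ∈ A', pr i c ∈ A')
    (hac : ∀ c ∈ A', dd c ∈ A → ∃ u ∈ A', c + dd u ∈ A) : RA ρ A' A := by
  intro w hw hD
  have step : ∀ (i : ℕ) (x : {x : Ch X // (pr i x = x ∧ x ∈ A') ∧ dd (w i + (x + mp ρ x)) ∈ A}),
      ∃ x' : {x : Ch X // (pr (i + 1) x = x ∧ x ∈ A') ∧ dd (w (i + 1) + (x + mp ρ x)) ∈ A},
        w i + (dd x'.1 + (x.1 + mp ρ x.1)) ∈ A := by
    rintro i ⟨x, ⟨h1, h2⟩, h3⟩
    obtain ⟨u, hu, h4⟩ := hac _ (add_mem (hw i).2 (add_mem h2 (hA' x h2))) h3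
    have h5 : w i + (dd (pr (i + 1) u) + (x + mp ρ x)) ∈ A := by
      have := gA i _ h4
      rw [map_add, map_add, map_add, ← dd_pr, ← mp_pr, h1, (hw i).1] at this
      convert this using 1
      abel
    refine ⟨⟨pr (i + 1) u, ⟨hom_pr _ _, gA' _ u hu⟩, ?_⟩, h5⟩
    convert add_mem (hD i).2 (add_mem h5 (hA _ h5)) using 1
    simp only [DT, map_add, h.dd, h.rr]
    linear_combination (norm := abel) -add_self (w i) - add_self (mp ρ (w i)) - add_self x
      - add_self (mp ρ x)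
  choose f hf using step
  let ξ : ∀ i : ℕ, {x : Ch X // (pr i x = x ∧ x ∈ A') ∧ dd (w i + (x + mp ρ x)) ∈ A} := fun i =>
    Nat.rec ⟨0, ⟨map_zero _, zero_mem _⟩, by simp [hw.dd_zero]⟩ f i
  have hξ : PP A' fun i => (ξ i).1 := fun i => (ξ i).2.1
  exact ⟨fun i => (ξ i).1, hξ, fun i =>
    ⟨by rw [Pi.add_apply, map_add, (hw i).1, hξ.hom_DT], hf i (ξ i)⟩⟩

theorem pr_prj (i : ℕ) (P : Cube X → Prop) (c : Ch X) : pr i (prj P c) = prj P (pr i c) := by
  refine Ch_induction (p := fun c => pr i (prj P c) = prj P (pr i c)) c (by simp) (fun q _ => ?_)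
    fun a b ha hb => by simp only [map_add, ha, hb]
  rw [prj_cb, pr_cb]
  by_cases h1 : P q <;> by_cases h2 : q.dim = i <;> simp [h1, h2, prj_cb, pr_cb]

theorem sup2_ind {S T : Submodule F2 (Ch X)} {φ : Ch X →ₗ[F2] Ch X} {c : Ch X} (hc : c ∈ S ⊔ T)
    {R : Submodule F2 (Ch X)} (h1 : ∀ c ∈ S, φ c ∈ R) (h2 : ∀ c ∈ T, φ c ∈ R) : φ c ∈ R :=
  (sup_le (a := S) (b := T) (c := R.comap φ) h1 h2) hc

/-- the free part: explicit contraction -/
theorem RA.free (h : Inv ρ) {S B V : Set X} (hS : MapsTo ρ S S) (hBV : B ⊆ V)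
    (hV : Disjoint V (ρ ⁻¹' V)) : RA ρ (sup S ⊔ (sup B ⊔ sup (ρ ⁻¹' B))) (sup S) := by
  intro w hw hD
  let p : Ch X →ₗ[F2] Ch X := prj fun q => range q.f ⊆ ρ ⁻¹' V
  let s : Ch X →ₗ[F2] Ch X := mp ρ ∘ₗ p
  have p1 : ∀ c ∈ sup B, p c = 0 := fun c hc => prj_eq_zero hc fun q h1 h2 =>
    disjoint_left.1 hV (hBV (h1 (mem_range_self fun _ => 0))) (h2 (mem_range_self fun _ => 0))
  have p2 : ∀ c ∈ sup (ρ ⁻¹' B), p c = c := fun c hc =>
    prj_eq_self (sup_mono (preimage_mono hBV) hc)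
  have r1 : ∀ c ∈ sup B, mp ρ c ∈ sup (ρ ⁻¹' B) := fun c hc =>
    mp_mem hc fun x hx => by rwa [mem_preimage, h.inv]
  have r2 : ∀ c ∈ sup (ρ ⁻¹' B), mp ρ c ∈ sup B := fun c hc => mp_mem hc fun x hx => hx
  have s0 : ∀ c ∈ sup S, s c ∈ sup S := fun c hc => mp_mem (prj_mem_of hc) hS
  have s1 : ∀ c ∈ sup B, s c = 0 := fun c hc => by simp [s, p1 c hc]
  have s2 : ∀ c ∈ sup (ρ ⁻¹' B), s c = mp ρ c := fun c hc => by simp [s, p2 c hc]
  have hξ : PP (sup S ⊔ (sup B ⊔ sup (ρ ⁻¹' B))) fun i => s (w i) := fun i =>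
    ⟨by simp only [s, p, LinearMap.comp_apply, ← mp_pr, pr_prj, (hw i).1],
      sup2_ind (hw i).2 (fun c hc => Submodule.mem_sup_left (s0 c hc)) fun c hc => sup2_ind hc
        (fun c hc => s1 c hc ▸ zero_mem _) fun c hc =>
          s2 c hc ▸ Submodule.mem_sup_right (Submodule.mem_sup_left (r2 c hc))⟩
  refine ⟨_, hξ, fun i => ⟨by rw [Pi.add_apply, map_add, (hw i).1, hξ.hom_DT], ?_⟩⟩
  have e1 : (dd ∘ₗ s + s ∘ₗ dd) (w (i + 1)) ∈ sup S :=
    sup2_ind (hw _).2 (fun c hc => add_mem (dd_mem (s0 c hc)) (s0 _ (dd_mem hc))) fun c hc =>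
      sup2_ind hc (fun c hc => by simp [s1 c hc, s1 _ (dd_mem hc)]) fun c hc => by
        simp [s2 c hc, s2 _ (dd_mem hc), h.dd, add_self]
  have e2 : (LinearMap.id + (s + mp ρ ∘ₗ s) + (s + s ∘ₗ mp ρ) : Ch X →ₗ[F2] Ch X) (w i) ∈ sup S :=
    sup2_ind (hw _).2 (fun c hc => add_mem (add_mem hc (add_mem (s0 c hc) (mp_mem (s0 c hc) hS)))
      (add_mem (s0 c hc) (s0 _ (mp_mem hc hS)))) fun c hc => sup2_ind hc (fun c hc => by
        simp [s1 c hc, s2 _ (r1 c hc), h.rr, add_self]) fun c hc => by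
        convert zero_mem (sup S)
        simp only [LinearMap.add_apply, LinearMap.comp_apply, LinearMap.id_apply, s2 c hc,
          s1 _ (r2 c hc), h.rr]
        linear_combination (norm := abel) add_self c + add_self (mp ρ c)
  convert add_mem (add_mem e1 e2) (s0 _ (hD i).2) using 1
  simp only [DT, Pi.add_apply, LinearMap.add_apply, LinearMap.comp_apply, LinearMap.id_apply, map_add]
  linear_combination (norm := abel) -add_self (s (dd (w (i + 1)))) - add_self (s (w i))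
    - add_self (s (mp ρ (w i)))

theorem RA.step (h : Inv ρ) {K O V : Set X} (hK : MapsTo ρ K K) (hO : IsOpen O) (hρO : MapsTo ρ O O)
    (hV : IsOpen V) (hd : Disjoint V (ρ ⁻¹' V)) :
    RA ρ (sup (K ∩ (O ∪ (V ∪ ρ ⁻¹' V)))) (sup (K ∩ O)) := by
  have hV' := hV.preimage h.cont
  have hB : ρ ⁻¹' (K ∩ V) = K ∩ ρ ⁻¹' V := by
    ext x
    exact ⟨fun hx => ⟨h.inv x ▸ hK hx.1, hx.2⟩, fun hx => ⟨hK hx.1, hx.2⟩⟩
  have hVV : MapsTo ρ (V ∪ ρ ⁻¹' V) (V ∪ ρ ⁻¹' V) := fun x hx =>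
    hx.symm.imp id fun hx => by rwa [mem_preimage, h.inv]
  have e : sup (K ∩ V) ⊔ sup (ρ ⁻¹' (K ∩ V)) = sup (K ∩ (V ∪ ρ ⁻¹' V)) := by
    rw [hB, inter_union_distrib_left, sup_union_of_sep hV hV' hd inter_subset_right inter_subset_right]
  have h1 := RA.free h (hK.inter_inter hρO) (inter_subset_right (s := K)) hd
  rw [e] at h1
  have hle : sup (K ∩ O) ⊔ sup (K ∩ (V ∪ ρ ⁻¹' V)) ≤ sup (K ∩ (O ∪ (V ∪ ρ ⁻¹' V))) :=
    sup_le (sup_mono (inter_subset_inter_right _ subset_union_left))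
      (sup_mono (inter_subset_inter_right _ subset_union_right))
  refine RA.trans h (RA.of_acyclic h (fun c hc => sup2_ind hc
    (fun c hc => Submodule.mem_sup_left (mp_mem hc (hK.inter_inter hρO)))
    fun c hc => Submodule.mem_sup_right (mp_mem hc (hK.inter_inter hVV)))
    (fun c hc => mp_mem hc (hK.inter_inter (hρO.union_union hVV))) (fun i c hc => sup2_ind hc
      (fun c hc => Submodule.mem_sup_left (pr_mem i hc)) fun c hc => Submodule.mem_sup_right (pr_mem i hc))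
    (fun i c hc => pr_mem i hc) fun c hc hd' => ?_) h1 le_sup_left hle
  obtain ⟨k, hk⟩ := small2 hO (hV.union hV') inter_subset_right hc
  refine ⟨sdkH k c, sdkH_mem k hc, ?_⟩
  have h2 := sup_le_sup (sup_mono (inter_subset_inter_left O inter_subset_left))
    (sup_mono (inter_subset_inter_left (V ∪ ρ ⁻¹' V) inter_subset_left)) (hk k le_rfl)
  convert add_mem h2 (sdkH_mem_sup2 k hd') using 1
  linear_combination (norm := abel) dd_sdkH k c + add_self c - add_self (sdkH k (dd c))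

/-- localization away from the fixed points -/
theorem RA.compact [T2Space X] (h : Inv ρ) {K O Z : Set X} (hK : MapsTo ρ K K) (hO : IsOpen O)
    (hρO : MapsTo ρ O O) (hZ : IsCompact Z) (hfree : ∀ x ∈ Z, ρ x ≠ x) (hKZ : K ⊆ O ∪ Z) :
    RA ρ (sup K) (sup (K ∩ O)) := by
  have key : ∀ O : Set X, IsOpen O → MapsTo ρ O O → ∃ O', IsOpen O' ∧ MapsTo ρ O' O' ∧ O ∪ Z ⊆ O' ∧
      RA ρ (sup (K ∩ O')) (sup (K ∩ O)) := by
    refine hZ.induction_on (p := fun Z => ∀ O : Set X, IsOpen O → MapsTo ρ O O → ∃ O', IsOpen O' ∧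
      MapsTo ρ O' O' ∧ O ∪ Z ⊆ O' ∧ RA ρ (sup (K ∩ O')) (sup (K ∩ O)))
      (fun O h1 h2 => ⟨O, h1, h2, by simp, RA.refl _ _⟩) (fun s t hst ht O h1 h2 => ?_)
      (fun s t hs ht O h1 h2 => ?_) fun x hx => ?_
    · obtain ⟨O', a1, a2, a3, a4⟩ := ht O h1 h2
      exact ⟨O', a1, a2, (union_subset_union_right _ hst).trans a3, a4⟩
    · obtain ⟨O', a1, a2, a3, a4⟩ := hs O h1 h2
      obtain ⟨O'', b1, b2, b3, b4⟩ := ht O' a1 a2
      refine ⟨O'', b1, b2, ?_, b4.trans h a4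
        (sup_mono (inter_subset_inter_right _ (subset_union_left.trans a3)))
        (sup_mono (inter_subset_inter_right _ (subset_union_left.trans b3)))⟩
      rw [← union_assoc]
      exact (union_subset_union_left _ a3).trans b3
    · obtain ⟨U, U', hU, hU', h1, h2, h3⟩ := t2_separation (hfree x hx)
      refine ⟨ρ ⁻¹' U ∩ U', mem_nhdsWithin_of_mem_nhds (((hU.preimage h.cont).inter hU').mem_nhds
        ⟨h1, h2⟩), fun O a1 a2 => ⟨_, a1.union (((hU.preimage h.cont).inter hU').union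
          (((hU.preimage h.cont).inter hU').preimage h.cont)), a2.union_union fun y hy =>
            hy.symm.imp id fun hy => by rwa [mem_preimage, h.inv],
          union_subset_union_right _ subset_union_left,
          RA.step h hK a1 a2 ((hU.preimage h.cont).inter hU') ?_⟩⟩
      exact disjoint_left.2 fun y hy hy' => disjoint_left.1 h3 hy.1 hy'.2
  obtain ⟨O', -, -, a3, a4⟩ := key O hO hρO
  rwa [inter_eq_left.2 (hKZ.trans a3)] at a4

/-- equivariant homotopies -/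
theorem hty_seq (h : Inv ρ) {H : ℝ × X → X} {W L : Set X} (hH : ContinuousOn H (Icc 0 1 ×ˢ W))
    (hL : MapsTo H (Icc 0 1 ×ˢ W) L) (heq : ∀ u ∈ Icc (0 : ℝ) 1, ∀ x ∈ W, H (u, ρ x) = ρ (H (u, x)))
    {w : ℕ → Ch X} (hw : PP (sup W) w) (hD : PP (sup (W ∩ {x | ρ x = x})) (DT ρ w)) :
    ∃ ξ, PP (sup L) ξ ∧ PP (sup (L ∩ {x | ρ x = x}))
      fun i => mp (fun x => H (0, x)) (w i) + mp (fun x => H (1, x)) (w i) + DT ρ ξ i := by
  have hr : ∀ c ∈ sup W, mp ρ (hty H c) = hty H (mp ρ c) := fun c hc => by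
    rw [mp_hty hc hH, hty_mp hc h.cont.continuousOn]
    exact mp_congr (cr_mem crs_seg_mem hc) fun p hp => (heq p.1 hp.1 p.2 hp.2).symm
  let ξ : ℕ → Ch X := fun i => Nat.casesOn i 0 fun i => hty H (w i)
  have hξ : PP (sup L) ξ := fun i => by
    cases i with
    | zero => exact ⟨map_zero _, zero_mem _⟩
    | succ i => exact ⟨by simp only [ξ, ← hty_pr, (hw i).1], hty_mem (hw i).2 hL⟩
  refine ⟨ξ, hξ, fun i => ⟨by rw [map_add, map_add, ← mp_pr, ← mp_pr, (hw i).1, hξ.hom_DT], ?_⟩⟩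
  beta_reduce
  rw [← dd_hty (hw i).2 hH]
  cases i with
  | zero => simp [DT, ξ, hw.dd_zero, add_self]
  | succ i =>
    have h1 : hty H (DT ρ w i) ∈ sup (L ∩ {x | ρ x = x}) := hty_mem (hD i).2 fun p hp =>
      ⟨hL ⟨hp.1, hp.2.1⟩, (heq p.1 hp.1 p.2 hp.2.1).symm.trans (by rw [hp.2.2])⟩
    convert h1 using 1
    simp only [DT, ξ, map_add, hr _ (hw i).2]
    linear_combination (norm := abel) add_self (dd (hty H (w (i + 1))))

end Crest.Agent.R231
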